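import Vale.Agent.P004E.Iface
import Vale.Agent.P004G.H293.RA

/-!
# P004E: blocks of the mollifier, and the statements of the modules M, W, F
-/

open Real MeasureTheory Set Filter
open scoped ENNReal Topology

namespace P004E

open P004G
open P004G.H293 (Lp ffx)

variable [Crv]

/-- the block boundaries `z_i = z^((1+θ)^i)` -/
noncomputable def zi (θ z : ℝ) (i : ℕ) : ℝ := z ^ ((1 + θ) ^ i : ℝ)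

/-- the index of the last block: the least `n` with `L z_{n+1} < 1` -/
noncomputable def nb (θ z L : ℝ) : ℕ := sInf {n : ℕ | L * zi θ z (n + 1) < 1}

/-- the length `l_i = log (z_i / z_{i+1}) = θ log (1 / z_i)` -/
noncomputable def li (θ z : ℝ) (i : ℕ) : ℝ := θ * Real.log (1 / zi θ z i)

open scoped Classical in
/-- block `i`: the good primes `y₀ < p ≤ exp (L z_i)`, and `exp (L z_{i+1}) < p` unless `i` is the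
last block -/
noncomputable def Ib (y₀ θ z L : ℝ) (i : ℕ) : Finset ℕ :=
  (gp (Real.exp (L * zi θ z i))).filter
    (fun p => y₀ < p ∧ (i < nb θ z L → Real.exp (L * zi θ z (i + 1)) < p))

/-- the Dirichlet polynomial of block `i` -/
noncomputable def Mi (S : ℕ → Finset ℕ) (c : ℕ → ℕ → ℝ) (i : ℕ) (X : ℕ → ℝ) : ℝ :=
  ∑ a ∈ S i, c i a * X a

/-- Module M. `ffx ω a = ∏ ω_p^{v_p(a)}`. -/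
structure BlkOK (C₀ c₀ η y₀ θ z L : ℝ) (S : ℕ → Finset ℕ) (c : ℕ → ℕ → ℝ) : Prop where
  supp : ∀ i ≤ nb θ z L, ∀ a ∈ S i, Good a ∧
    (a : ℝ) ≤ Real.exp (C₀ * (L * zi θ z i) * Real.exp (η * li θ z i)) ∧
    ∀ p : ℕ, p.Prime → p ∣ a → p ∈ Ib y₀ θ z L i
  coef : ∀ i ≤ nb θ z L, ∑ a ∈ S i, |c i a| ≤
    Real.exp (C₀ * (L * zi θ z i) * Real.exp (η * li θ z i))
  two : ∀ i ≤ nb θ z L, EE (Ib y₀ θ z L i) (fun ω => Mi S c i (ffx ω) ^ 2) ≤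
    Real.exp ((1 + η) * li θ z i + C₀)
  four : ∀ i ≤ nb θ z L, EE (Ib y₀ θ z L i) (fun ω => Mi S c i (ffx ω) ^ 4) ≤
    Real.exp (C₀ * (1 + li θ z i))
  close : ∀ i ≤ nb θ z L, ∀ s : ℂ, 1 ≤ s.re → s.re ≤ 2 → ‖s - 1‖ * (L * zi θ z i) ≤ 1 →
    EE (Ib y₀ θ z L i) (fun ω =>
      ‖(Mi S c i (ffx ω) : ℂ) * (∏ p ∈ Ib y₀ θ z L i, Lp p s (ω p)) - 1‖ ^ 2) ≤
    C₀ * (Real.exp (-c₀ * li θ z i) +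
      ‖s - 1‖ ^ 2 * (∑ p ∈ Ib y₀ θ z L i, Real.log p ^ 2 / p) +
      ∑ p ∈ Ib y₀ θ z L i, (p : ℝ) ^ (-3 / 2 : ℝ))

/-- Module M : existence of the blocks. -/
def StBlk : Prop := ∀ η : ℝ, 0 < η → η ≤ 1 → ∃ C₀ c₀ : ℝ, 1 ≤ C₀ ∧ 0 < c₀ ∧
  ∀ y₀ θ : ℝ, 2 ≤ y₀ → 0 < θ → θ ≤ 1 / 10 → ∃ z₀ : ℝ, 0 < z₀ ∧ z₀ < 1 ∧ ∀ z : ℝ, 0 < z → z ≤ z₀ →
    ∃ L₀ : ℝ, ∀ L : ℝ, L₀ ≤ L → ∃ (S : ℕ → Finset ℕ) (c : ℕ → ℕ → ℝ), BlkOK C₀ c₀ η y₀ θ z L S c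

/-- the blocks `i₀ ≤ i < i₁` at the character `χ_h` -/
noncomputable def Mh (S : ℕ → Finset ℕ) (c : ℕ → ℕ → ℝ) (i₀ i₁ : ℕ) (h : ℤ) : ℝ :=
  ∏ i ∈ Finset.Ico i₀ i₁, Mi S c i (chi h)

/-- Module W1 : mollified windows (`w ≥ (log Y)^{1/200}`), over all integers `h`. The exponent `A`
does not depend on `θ`, the constants `n`, `C` do not depend on `z`, `Λ`. -/
def StWin : Prop := ∀ C₀ c₀ η : ℝ, 1 ≤ C₀ → 0 < c₀ → 0 < η → η ≤ 1 → ∃ A : ℕ,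
  ∀ y₀ θ : ℝ, 2 ≤ y₀ → 0 < θ → θ ≤ 1 / 10 → ∃ (n : ℕ) (C z₀ : ℝ), 1 ≤ C ∧ 0 < z₀ ∧
    ∀ z : ℝ, 0 < z → z ≤ z₀ → ∀ Λ : ℝ, 1 ≤ Λ → ∃ Y₀ : ℕ,
    ∀ (Y : ℕ) (S : ℕ → Finset ℕ) (c : ℕ → ℕ → ℝ), Y₀ ≤ Y →
    BlkOK C₀ c₀ η y₀ θ z (Real.log Y) S c → ∀ (i₀ : ℕ) (w b : ℝ) (h : ℝ → ℝ), i₀ ≤ nb θ z (Real.log Y) →
    Real.log Y ^ (1 / 200 : ℝ) ≤ w → w ≤ 3 * Real.log Y →
    64 * C₀ * (Real.log Y * zi θ z i₀) * Real.exp (η * li θ z i₀) ≤ w → 0 ≤ b →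
    ContDiff ℝ n h → (∀ x, h x ≠ 0 → w ≤ x ∧ x ≤ Λ * w ∧ x ≤ 3 * Real.log Y) →
    (∀ k ≤ n, ∀ x, |iteratedDeriv k h x| ≤ b * w⁻¹ ^ k) →
    Summable (fun k : ℤ => P004.H1.ah Y k * (Mh S c i₀ (nb θ z (Real.log Y) + 1) k * Fw Y h k) ^ 2) ∧
    ∑' k : ℤ, P004.H1.ah Y k * (Mh S c i₀ (nb θ z (Real.log Y) + 1) k * Fw Y h k) ^ 2 ≤
      C * Λ ^ n * Y * b ^ 2 * (w / (Real.log Y * zi θ z i₀)) ^ A *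
        (3 * Real.log Y / w) ^ (A * θ) * (1 + Real.log (3 * Real.log Y / w))

/-- Module W2 : the other blocks, and the whole mollifier. -/
def StMr : Prop := ∀ C₀ c₀ η : ℝ, 1 ≤ C₀ → 0 < c₀ → 0 < η → η ≤ 1 →
  ∀ y₀ θ : ℝ, 2 ≤ y₀ → 0 < θ → θ ≤ 1 / 10 → ∃ (C z₀ : ℝ), 1 ≤ C ∧ 0 < z₀ ∧
    ∀ z : ℝ, 0 < z → z ≤ z₀ → ∃ Y₀ : ℕ, ∀ (Y : ℕ) (S : ℕ → Finset ℕ) (c : ℕ → ℕ → ℝ), Y₀ ≤ Y →
    BlkOK C₀ c₀ η y₀ θ z (Real.log Y) S c → ∀ i₀ ≤ nb θ z (Real.log Y) + 1,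
    Summable (fun k : ℤ => P004.H1.ah Y k * Mh S c 0 i₀ k ^ 2) ∧
    ∑' k : ℤ, P004.H1.ah Y k * Mh S c 0 i₀ k ^ 2 ≤
      C * Y * (if i₀ ≤ nb θ z (Real.log Y) then (z / zi θ z i₀) ^ (1 + 2 * η)
        else Real.log Y ^ ((1 + 2 * η) * (1 + θ)))

/-- the main window -/
noncomputable def hmain (ε : ℝ) (Y : ℕ) (x : ℝ) : ℝ :=
  x / Real.log Y * (ηf (x / (ε * Real.log Y)) * (1 - ηf (x / (3 / 2 * Real.log Y))))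

open scoped Classical in
/-- the class -/
noncomputable def Cl (σ : ℤ) (N Y : ℕ) : Finset ℤ :=
  (sqZ Y).filter (fun m => Y < 2 * m.natAbs ∧ m.sign = σ ∧ m % (N : ℤ) = 1)

/-- Module F : the first moment in a class. The constant `c₁` does not depend on `θ, η₁, z`. -/
def StFirst : Prop := ∀ C₀ c₀ η : ℝ, 1 ≤ C₀ → 0 < c₀ → 0 < η → η ≤ 1 →
  ∀ (σ : ℤ) (N : ℕ), (σ = 1 ∨ σ = -1) → 0 < N → 8 ∣ N → bd ∣ N →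
  ∃ c₁ y₀ : ℝ, 0 < c₁ ∧ 2 ≤ y₀ ∧ ∀ θ η₁ : ℝ, 0 < θ → θ ≤ 1 / 10 → 2 * θ * η ≤ η₁ → 0 < η₁ →
    η₁ ≤ 1 / 4 → ∃ z₀ : ℝ, 0 < z₀ ∧ ∀ z : ℝ, 0 < z → z ≤ z₀ → ∃ Y₀ : ℕ,
    ∀ (Y : ℕ) (S : ℕ → Finset ℕ) (c : ℕ → ℕ → ℝ), Y₀ ≤ Y →
    BlkOK C₀ c₀ η y₀ θ z (Real.log Y) S c →
    c₁ * Y ≤ ∑ m ∈ Cl σ N Y, Mh S c 0 (nb θ z (Real.log Y) + 1) m *
      Fw Y (hmain (z ^ (1 - η₁)) Y) m

end P004E
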