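import Vale.Agent.P004E.Iface

/-!
# P004E, module S: definitions and statements of the sub-modules (S1 - S6).

All windows have unit length: `Kn n k` = `k` is `C^n`, supported in `[0,1]`, derivatives `≤ 1`.
Restriction to `n` coprime to `q` is a twist by `q²`: only `Tw (h q²)` occurs.
-/

open Real MeasureTheory Set Filter
open scoped ENNReal Topology

namespace P004E

open P004G

variable [Crv]

/-- windows -/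
structure Kn (n : ℕ) (k : ℝ → ℝ) : Prop where
  smooth : ContDiff ℝ n k
  supp : ∀ x, k x ≠ 0 → 0 ≤ x ∧ x ≤ 1
  bound : ∀ i ≤ n, ∀ x, |iteratedDeriv i k x| ≤ 1

/-- windowed theta function `4 ∑ lam n χ_h(n) n^{-1/2} kap k (n u)` (`h` any nonzero integer) -/
noncomputable def Tw (h : ℤ) (u : ℝ) (k : ℝ → ℝ) : ℝ :=
  ∫ x, u * Real.exp x * theta h (u * Real.exp x) * k x

/-- windowed sum over the squarefree `n` coprime to `q` -/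
noncomputable def Sw (h : ℤ) (q : ℕ) (u : ℝ) (k : ℝ → ℝ) : ℝ :=
  ∫ x, u * Real.exp x * Uf h q (u * Real.exp x) * k x

/-- the window in series form -/
noncomputable def kap (k : ℝ → ℝ) (t : ℝ) : ℝ :=
  ∫ x, t * Real.exp x * Real.exp (-π * (t * Real.exp x)) * k x

/-- the integers `h ≠ 0`, `|h| ≤ H` -/
noncomputable def hZ (H : ℕ) : Finset ℤ := (Finset.Icc (-(H : ℤ)) H).erase 0

/-! Inputs on the coefficients: `StN0`, `StN1`, `StHlam` of `P004E/Iface.lean`. -/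

/-! ### S1: Poisson summation and separation of variables (helper394) -/

/-- summand of the dual term -/
noncomputable def AdTerm (H : ℝ) (R : ℕ) (j : ℤ) (u : ℝ) (k : ℝ → ℝ) (t : ℕ × ℕ × ℕ) : ℝ :=
  if Squarefree (t.1 * t.2.1 * t.2.2) ∧ (t.1 * t.2.1 * t.2.2).Coprime R then
    lam t.1 ^ 2 / t.1 * (lam t.2.1 * lam t.2.2 / (t.2.1 * t.2.2)) * chi j (t.2.1 * t.2.2) *
      (∑ d ∈ t.1.divisors, if (d : ℤ) ∣ j then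
        (ArithmeticFunction.moebius d : ℝ) / d *
          Gk (|(j : ℝ)| * H / ((d : ℝ) ^ 2 * (t.2.1 * t.2.2))) else 0) *
      (kap k (t.1 * t.2.1 * u) * kap k (t.1 * t.2.2 * u))
  else 0

/-- the dual term -/
noncomputable def Ad (H : ℝ) (R : ℕ) (j : ℤ) (u : ℝ) (k : ℝ → ℝ) : ℝ :=
  ∑' t : ℕ × ℕ × ℕ, AdTerm H R j u k t

/-- Module S1a : Poisson summation. -/
def StPoiW : Prop := ∃ C : ℝ, 1 ≤ C ∧ ∀ (H : ℕ) (u : ℝ) (R : ℕ) (k : ℝ → ℝ), 1 ≤ H → 0 < u →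
  0 < R → Kn 0 k →
  ENNReal.ofReal (∑ h ∈ hZ H, Sw h R u k ^ 2) ≤ ENNReal.ofReal (C * H) *
    (ENNReal.ofReal |Ad H R 0 u k| + ∑' j : ℕ,
      (ENNReal.ofReal |Ad H R (j + 1) u k| + ENNReal.ofReal |Ad H R (-(j + 1)) u k|))

/-- Module S1b : the diagonal (`StN0 → StAd0`). -/
def StAd0 : Prop := ∃ C : ℝ, 1 ≤ C ∧ ∀ (H : ℕ) (u : ℝ) (R : ℕ) (k : ℝ → ℝ), 1 ≤ H → 0 < u →
  0 < R → Kn 0 k → |Ad H R 0 u k| ≤ C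

/-- Module S1c : comparison with the dual sums of the library. -/
def StAdAG : Prop := ∀ (H : ℕ) (u : ℝ) (R j : ℕ) (ε : ℤ) (k : ℝ → ℝ), 1 ≤ H → 0 < u → 0 < R →
  0 < j → ε.natAbs = 1 → Kn 0 k →
  ENNReal.ofReal |Ad H R (ε * j) u k| ≤
    ∫⁻ u₁ in Ioi (u / 2), ∫⁻ u₂ in Ioi (u / 2), ENNReal.ofReal |AG H R j (ε * j) u₁ u₂|

/-- Module S1d : separation of variables (line `Re w = 1`), for any finite set `J` of `j`. -/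
def StAdSep : Prop := ∀ n : ℕ, ∃ C : ℝ, 1 ≤ C ∧ ∀ (H : ℕ) (u : ℝ) (R : ℕ) (ε : ℤ) (k : ℝ → ℝ)
  (J : Finset ℕ) (B : ℕ → ℕ → ℝ≥0∞), 1 ≤ H → 0 < u → 0 < R → ε.natAbs = 1 → Kn (n + 1) k →
  (∀ j ∈ J, 0 < j) →
  (∀ g e : ℕ, 0 < g → 0 < e → ∀ u' : ℝ, g * e * u / 2 ≤ u' → ∀ k' : ℝ → ℝ, Kn n k' →
    ∑ j ∈ J, ENNReal.ofReal ((∑ d ∈ g.divisors.filter (· ∣ j), (d : ℝ)) / j *
      Sw (ε * j) (e * g * R) u' k' ^ 2) ≤ B g e) →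
  ∑ j ∈ J, ENNReal.ofReal |Ad H R (ε * j) u k| ≤ ENNReal.ofReal (C / (H * u)) *
    ∑' g : ℕ, ∑' e : ℕ, ENNReal.ofReal (lam g ^ 2 / g ^ 2 * (lam e ^ 2 / e)) * B g e

/-! ### S2: squarefree-supported sums and full sums (helper253) -/

/-- Module S2a : `Tw` from `Sw`, in mean square over any weighted finite set of `h`. -/
def StTS : Prop := ∀ ε : ℝ, 0 < ε → ∃ C : ℝ, 1 ≤ C ∧
  ∀ (L B u : ℝ) (n : ℕ) (S : Finset ℤ) (w : ℤ → ℝ), 1 ≤ L → 0 < u → 0 ≤ B →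
  (∀ h ∈ S, h ≠ 0 ∧ |(h : ℝ)| ≤ Real.exp L ∧ 0 ≤ w h) →
  (∀ u' : ℝ, u ≤ u' → ∀ k, Kn n k → ∑ h ∈ S, w h * Sw h 1 u' k ^ 2 ≤ B) →
  ∀ k, Kn (n + 1) k → ∑ h ∈ S, w h * Tw h u k ^ 2 ≤ C * L ^ ε * B

/-- Module S2b : `Sw` from `Tw` and from far windows of `Sw`. -/
def StST : Prop := ∀ ε : ℝ, 0 < ε → ∃ δ : ℝ, 0 < δ ∧ δ ≤ ε ∧ ∃ C : ℝ, 1 ≤ C ∧
  ∀ (L B₁ B₂ u : ℝ) (q n : ℕ) (S : Finset ℤ) (w : ℤ → ℝ), 1 ≤ L → 0 < u → 0 ≤ B₁ → 0 ≤ B₂ →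
  0 < q → (∀ h ∈ S, h ≠ 0 ∧ |(h : ℝ)| * q ≤ Real.exp L ∧ 0 ≤ w h) →
  (∀ u' : ℝ, u ≤ u' → ∀ k, Kn n k → ∑ h ∈ S, w h * Tw (h * q ^ 2) u' k ^ 2 ≤ B₁) →
  (∀ u' : ℝ, u * Real.exp (L ^ δ) ≤ u' → ∀ k, Kn n k → ∑ h ∈ S, w h * Sw h q u' k ^ 2 ≤ B₂) →
  ∀ k, Kn (n + 1) k → ∑ h ∈ S, w h * Sw h q u k ^ 2 ≤ C * L ^ ε * (B₁ + B₂)

/-- the loss for the removal of the primes dividing `q` -/
noncomputable def nu (q : ℕ) : ℝ := ∏ p ∈ q.primeFactors, (1 + 1 / √(p : ℝ)) ^ 4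

/-- Module S2c : removal of the primes dividing `q`. -/
def StTq : Prop := ∀ (B u : ℝ) (q n : ℕ) (S : Finset ℤ) (w : ℤ → ℝ), 0 < u → 0 ≤ B → 0 < q →
  (∀ h ∈ S, h ≠ 0 ∧ 0 ≤ w h) →
  (∀ u' : ℝ, u ≤ u' → ∀ k, Kn n k → ∑ h ∈ S, w h * Tw h u' k ^ 2 ≤ B) →
  ∀ k, Kn n k → ∑ h ∈ S, w h * Tw (h * q ^ 2) u k ^ 2 ≤ nu q * B

/-- Module S2d : one prime, exactly. -/
def StTp : Prop := ∀ (h : ℤ) (p : ℕ) (u : ℝ) (k : ℝ → ℝ), h ≠ 0 → p.Prime → ¬ p ∣ bd → 0 < u →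
  Kn 0 k → Tw (h * p ^ 2) u k = Tw h u k - lam p * chi h p / √(p : ℝ) * Tw h (p * u) k +
    chi h p ^ 2 / p * Tw h (p ^ 2 * u) k

/-! ### S3: far windows -/

/-- Module S3 : far windows (from S1, `StAG`, `StTailAG`, `StFull`, `Tw.StJs`). -/
def StFar : Prop := ∃ C : ℝ, 1 ≤ C ∧ ∃ A : ℕ, ∀ (L u : ℝ) (H q : ℕ) (k : ℝ → ℝ), 1 ≤ L → 1 ≤ H →
  Real.log H ≤ L → Real.exp (-L) ≤ u → 0 < q → Kn 0 k →
  ∑ h ∈ hZ H, Sw h q u k ^ 2 ≤ C * (H + L ^ A * dv q ^ A / u) * Real.exp (-u)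

/-- Module S3b : the pointwise a priori bound. -/
def StAP : Prop := ∃ C : ℝ, 1 ≤ C ∧ ∃ A : ℕ, ∀ (L u : ℝ) (ε : ℤ) (q j₁ j₂ : ℕ) (k : ℝ → ℝ),
  1 ≤ L → ε.natAbs = 1 → Squarefree j₁ → 0 < j₂ → 0 < q → Real.exp (-L) ≤ u → Kn 1 k →
  ENNReal.ofReal (Sw (ε * ((j₁ * j₂ ^ 2 : ℕ) : ℤ)) q u k ^ 2) ≤
    ENNReal.ofReal (C * L ^ A * dv q ^ A * dv j₂ ^ A) * (Jm j₁ + 1)

/-! ### S4: the functional equation, locally -/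

/-- second moment over squarefree twists -/
noncomputable def MT (X : ℕ) (u : ℝ) (k : ℝ → ℝ) : ℝ := ∑ m ∈ sqZ X, Tw m u k ^ 2

/-- Module S4 : windows on the dual side of the functional equation. -/
def StFE : Prop := ∃ c₀ : ℝ, 0 < c₀ ∧ ∀ n : ℕ, ∃ C : ℝ, 1 ≤ C ∧ ∀ (X : ℕ) (B : ℝ), 1 ≤ X → 0 ≤ B →
  (∀ X' : ℕ, 1 ≤ X' → X' ≤ X → ∀ u : ℝ, c₀ / X' ≤ u → ∀ k, Kn n k → MT X' u k ≤ B * X') →
  ∀ u : ℝ, 0 < u → ∀ k, Kn (n + 1) k → MT X u k ≤ C * B * X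

/-! ### S5, S6: recursion -/

/-- the level statement -/
def StLev (n : ℕ) (α : ℝ) : Prop := ∃ C : ℝ, 1 ≤ C ∧ ∀ (L : ℝ) (X : ℕ), 1 ≤ L → 1 ≤ X →
  Real.log X ≤ L → ∀ u : ℝ, 0 < u → ∀ k, Kn n k → MT X u k ≤ C * L ^ α * X

/-- Module S5 : the dual side, `StLev n α → ...` -/
def StDual : Prop := ∀ (n : ℕ) (α ε : ℝ), 0 < ε → 0 ≤ α → StLev n α → ∃ C : ℝ, 1 ≤ C ∧
  ∀ (L u : ℝ) (H : ℕ) (k : ℝ → ℝ), 1 ≤ L → 1 ≤ H → Real.log H ≤ L → Real.exp (-L) ≤ u →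
  Kn (n + 4) k →
  ∑ h ∈ hZ H, Sw h 1 u k ^ 2 ≤ C * (H + L ^ ε * (L + L ^ α) / u)

/-- Arithmetic for the removal of large `g` in `StAdSep`. -/
def StGsum : Prop := ∀ (B A : ℕ) (δ : ℝ), 0 < δ → ∃ C : ℝ, 1 ≤ C ∧ ∀ (L : ℝ) (j : ℕ), 1 ≤ L → 0 < j →
  Real.log j ≤ L → ∑' g : ℕ, ENNReal.ofReal (if Real.exp (L ^ δ) < g then
    dv g ^ B / g ^ 2 * ∑ d ∈ g.divisors.filter (· ∣ j), (d : ℝ) else 0) ≤
    ENNReal.ofReal (C / L ^ A)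

/-- Module S6 : the primal side: one step of the recursion. -/
def StStep : Prop := ∀ (n : ℕ) (α : ℝ), 0 ≤ α → StLev n α →
  StLev (n + 10) (max (α - 1 / 2) (77 / 100))

end P004E
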