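import Vale.Agent.P004G.Iface
import Vale.Agent.P004G.LIface
import Vale.Agent.P004.H293.Rand

/-!
# P004E: a positive proportion of quadratic twists of analytic rank exactly one.
Frozen statements.
-/

open Real MeasureTheory Set Filter
open scoped ENNReal Topology

namespace P004E

open P004G

export P004.H293 (E1 EE)

variable [Crv]

/-! ### N. inputs on the coefficients -/

open scoped Classical in
/-- the good primes `≤ x` -/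
noncomputable def gp (x : ℝ) : Finset ℕ :=
  (Finset.range (⌊x⌋₊ + 1)).filter (fun p => p.Prime ∧ ¬ p ∣ bd)

/-- Module N2 (Mertens for `lam p ^ 2`). -/
def StMert : Prop := ∃ C : ℝ, 1 ≤ C ∧ ∀ x : ℝ, 1 ≤ x →
  |∑ p ∈ gp x, (lam p ^ 2 - 1) * Real.log p / p| ≤ C

/-- Module N0 (Rankin-Selberg upper bound). -/
def StN0 : Prop := ∃ C : ℝ, 1 ≤ C ∧ ∀ x : ℝ, 1 ≤ x →
  ∑ n ∈ Finset.Icc 1 ⌊x⌋₊, (ca n : ℝ) ^ 2 ≤ C * x ^ 2

/-- Module N1 (`L(s, sym²)` near `s = 1`, with power saving). -/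
def StN1 : Prop := ∃ (C δ D : ℝ), 1 ≤ C ∧ 0 < δ ∧ ∀ x : ℝ, 1 ≤ x →
  |∑ a ∈ (Finset.Icc 1 ⌊x⌋₊).filter (fun a => Squarefree a ∧ a.Coprime bd),
    (∏ p ∈ a.primeFactors, (lam p ^ 2 - 1)) / (a : ℝ) - D| ≤ C * x ^ (-δ)

/-- the only condition on small primes (automatic for `p ≥ 5`) -/
def StHlam : Prop := ∀ p : ℕ, p.Prime → ¬ p ∣ bd → 10 * |(ca p : ℝ)| ≤ 9 * p

/-! ### S. the strip -/

/-- Module S : the second moment of a smooth functional at the edge. -/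
def StStrip : Prop := ∃ (n : ℕ) (C : ℝ), 1 ≤ C ∧ ∀ (Y : ℕ) (h : ℝ → ℝ), 3 ≤ Y → ContDiff ℝ n h →
  (∀ x, h x ≠ 0 → |x| ≤ 2 * Real.log Y ^ (1 / 100 : ℝ)) →
  (∀ i ≤ n, ∀ x, |iteratedDeriv i h x| ≤ 1) →
  ∑ m ∈ (sqZ Y).filter (fun m => Y < 2 * m.natAbs), (Fw Y h m) ^ 2 ≤
    C * Y * Real.log Y ^ (4 / 5 : ℝ)

end P004E
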